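import Mathlib
import Crest.Agent.Helper19.Orthant
import Crest.Agent.Helper25.S0423Calc

/-!
# Mean shift for the exponential averaging operator (package B5 of the S0423 project)

With `H = Set.indicator (Set.Ioi 0) 1` (the Heaviside function) and
`K b f y = ∫ s in Ioi 0, f (y + b * s) * exp (-s)` (helper19's operator), we show that for a bounded
measurable `f` with `f - H` integrable, `K b f - H` is integrable and
`∫ (K b f - H) = ∫ (f - H) + b`.  Iterating, `∫ (Kiter N a H - H) = ∑ i, a i`.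
-/

namespace Crest.Agent.Helper42

open MeasureTheory Set Crest.Agent.Helper19

/-- Difference of a shifted Heaviside function and the Heaviside function, as a difference of
indicators of bounded intervals. -/
theorem H_shift_sub (c y : ℝ) :
    Set.indicator (Set.Ioi (0:ℝ)) (1 : ℝ → ℝ) (y + c) - Set.indicator (Set.Ioi (0:ℝ)) (1 : ℝ → ℝ) y
      = Set.indicator (Set.Ioc (-c) 0) (1 : ℝ → ℝ) y
        - Set.indicator (Set.Ioc 0 (-c)) (1 : ℝ → ℝ) y := by
  by_cases h1 : 0 < y + c <;> by_cases h2 : 0 < y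
  · have h3 : ¬ (y ≤ 0) := not_le.mpr h2
    have h4 : ¬ (y ≤ -c) := by intro h; linarith
    simp [h1, h2, h3, h4]
  · have h3 : y ≤ 0 := not_lt.mp h2
    have h4 : -c < y := by linarith
    simp [h1, h2, h3, h4]
  · have h3 : ¬ (y ≤ 0) := not_le.mpr h2
    have h4 : y ≤ -c := by linarith [not_lt.mp h1]
    simp [h1, h2, h3, h4]
  · have h4 : ¬ (-c < y) := by intro h; exact h1 (by linarith)
    simp [h1, h2, h4]

theorem integrable_indicator_Ioc_one (u v : ℝ) :
    Integrable (Set.indicator (Set.Ioc u v) (1 : ℝ → ℝ)) := by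
  have h : IntegrableOn (fun _ : ℝ => (1 : ℝ)) (Set.Ioc u v) := integrableOn_const (by simp)
  exact h.integrable_indicator measurableSet_Ioc

theorem integrable_H_shift_sub (c : ℝ) :
    Integrable (fun y : ℝ => Set.indicator (Set.Ioi (0:ℝ)) (1 : ℝ → ℝ) (y + c)
      - Set.indicator (Set.Ioi (0:ℝ)) (1 : ℝ → ℝ) y) := by
  have h := (integrable_indicator_Ioc_one (-c) 0).sub (integrable_indicator_Ioc_one 0 (-c))
  refine h.congr (Filter.Eventually.of_forall fun y => ?_)
  simp only [Pi.sub_apply]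
  rw [H_shift_sub]

theorem integral_H_shift_sub (c : ℝ) :
    ∫ y : ℝ, (Set.indicator (Set.Ioi (0:ℝ)) (1 : ℝ → ℝ) (y + c)
      - Set.indicator (Set.Ioi (0:ℝ)) (1 : ℝ → ℝ) y) = c := by
  have h : (fun y : ℝ => Set.indicator (Set.Ioi (0:ℝ)) (1 : ℝ → ℝ) (y + c)
      - Set.indicator (Set.Ioi (0:ℝ)) (1 : ℝ → ℝ) y)
      = fun y => Set.indicator (Set.Ioc (-c) 0) (1 : ℝ → ℝ) y
        - Set.indicator (Set.Ioc 0 (-c)) (1 : ℝ → ℝ) y := funext fun y => H_shift_sub c y
  rw [h, integral_sub (integrable_indicator_Ioc_one (-c) 0) (integrable_indicator_Ioc_one 0 (-c)),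
    integral_indicator_one measurableSet_Ioc, integral_indicator_one measurableSet_Ioc,
    Real.volume_real_Ioc, Real.volume_real_Ioc]
  rcases le_total 0 c with hc | hc
  · rw [max_eq_left (by linarith), max_eq_right (by linarith)]; ring
  · rw [max_eq_right (by linarith), max_eq_left (by linarith)]; ring

theorem integral_norm_H_shift_sub_le (c : ℝ) :
    ∫ y : ℝ, ‖Set.indicator (Set.Ioi (0:ℝ)) (1 : ℝ → ℝ) (y + c)
      - Set.indicator (Set.Ioi (0:ℝ)) (1 : ℝ → ℝ) y‖ ≤ |c| := by
  have hle : ∫ y : ℝ, ‖Set.indicator (Set.Ioi (0:ℝ)) (1 : ℝ → ℝ) (y + c)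
      - Set.indicator (Set.Ioi (0:ℝ)) (1 : ℝ → ℝ) y‖
      ≤ ∫ y : ℝ, (Set.indicator (Set.Ioc (-c) 0) (1 : ℝ → ℝ) y
        + Set.indicator (Set.Ioc 0 (-c)) (1 : ℝ → ℝ) y) := by
    refine integral_mono (integrable_H_shift_sub c).norm
      ((integrable_indicator_Ioc_one (-c) 0).add (integrable_indicator_Ioc_one 0 (-c)))
      (fun y => ?_)
    simp only
    rw [H_shift_sub, Real.norm_eq_abs]
    have h1 : (0:ℝ) ≤ Set.indicator (Set.Ioc (-c) 0) (1 : ℝ → ℝ) y :=
      Set.indicator_nonneg (fun _ _ => zero_le_one) y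
    have h2 : (0:ℝ) ≤ Set.indicator (Set.Ioc 0 (-c)) (1 : ℝ → ℝ) y :=
      Set.indicator_nonneg (fun _ _ => zero_le_one) y
    rw [abs_le]
    constructor <;> linarith
  refine hle.trans ?_
  rw [integral_add (integrable_indicator_Ioc_one (-c) 0) (integrable_indicator_Ioc_one 0 (-c)),
    integral_indicator_one measurableSet_Ioc, integral_indicator_one measurableSet_Ioc,
    Real.volume_real_Ioc, Real.volume_real_Ioc]
  rcases le_total 0 c with hc | hc
  · rw [max_eq_left (by linarith), max_eq_right (by linarith), abs_of_nonneg hc]; linarith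
  · rw [max_eq_right (by linarith), max_eq_left (by linarith), abs_of_nonpos hc]; linarith

section shift

variable (f : ℝ → ℝ)
  (hint : Integrable (fun x => f x - Set.indicator (Set.Ioi (0:ℝ)) (1 : ℝ → ℝ) x))

include hint

/-- `y ↦ f (y + c) - H y` is integrable when `f - H` is. -/
theorem integrable_shift_sub_H (c : ℝ) :
    Integrable (fun y => f (y + c) - Set.indicator (Set.Ioi (0:ℝ)) (1 : ℝ → ℝ) y) := by
  have h1 := hint.comp_add_right c
  have h2 := integrable_H_shift_sub c
  refine (h1.add h2).congr (Filter.Eventually.of_forall fun y => ?_)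
  simp only [Pi.add_apply]
  ring

theorem integral_shift_sub_H (c : ℝ) :
    ∫ y, (f (y + c) - Set.indicator (Set.Ioi (0:ℝ)) (1 : ℝ → ℝ) y)
      = (∫ x, (f x - Set.indicator (Set.Ioi (0:ℝ)) (1 : ℝ → ℝ) x)) + c := by
  have h1 := hint.comp_add_right c
  have h2 := integrable_H_shift_sub c
  have h : (fun y => f (y + c) - Set.indicator (Set.Ioi (0:ℝ)) (1 : ℝ → ℝ) y)
      = fun y => (f (y + c) - Set.indicator (Set.Ioi (0:ℝ)) (1 : ℝ → ℝ) (y + c))
        + (Set.indicator (Set.Ioi (0:ℝ)) (1 : ℝ → ℝ) (y + c)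
          - Set.indicator (Set.Ioi (0:ℝ)) (1 : ℝ → ℝ) y) := by
    funext y; ring
  rw [h, integral_add h1 h2, integral_H_shift_sub,
    integral_add_right_eq_self (fun x => f x - Set.indicator (Set.Ioi (0:ℝ)) (1 : ℝ → ℝ) x) c]

theorem integral_norm_shift_sub_H_le (c : ℝ) :
    ∫ y, ‖f (y + c) - Set.indicator (Set.Ioi (0:ℝ)) (1 : ℝ → ℝ) y‖
      ≤ (∫ x, ‖f x - Set.indicator (Set.Ioi (0:ℝ)) (1 : ℝ → ℝ) x‖) + |c| := by
  have h1 := hint.comp_add_right c
  have h2 := integrable_H_shift_sub c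
  have hle : ∫ y, ‖f (y + c) - Set.indicator (Set.Ioi (0:ℝ)) (1 : ℝ → ℝ) y‖
      ≤ ∫ y, (‖f (y + c) - Set.indicator (Set.Ioi (0:ℝ)) (1 : ℝ → ℝ) (y + c)‖
        + ‖Set.indicator (Set.Ioi (0:ℝ)) (1 : ℝ → ℝ) (y + c)
          - Set.indicator (Set.Ioi (0:ℝ)) (1 : ℝ → ℝ) y‖) := by
    refine integral_mono (integrable_shift_sub_H f hint c).norm (h1.norm.add h2.norm) (fun y => ?_)
    simp only
    have := norm_add_le (f (y + c) - Set.indicator (Set.Ioi (0:ℝ)) (1 : ℝ → ℝ) (y + c))
      (Set.indicator (Set.Ioi (0:ℝ)) (1 : ℝ → ℝ) (y + c)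
          - Set.indicator (Set.Ioi (0:ℝ)) (1 : ℝ → ℝ) y)
    simpa using this
  refine hle.trans ?_
  rw [integral_add h1.norm h2.norm,
    integral_add_right_eq_self
      (fun x => ‖f x - Set.indicator (Set.Ioi (0:ℝ)) (1 : ℝ → ℝ) x‖) c]
  have := integral_norm_H_shift_sub_le c
  linarith

end shift

/-- **Mean shift (M1).** For bounded measurable `f` with `f - H` integrable, `K b f - H` is
integrable and its integral is that of `f - H` plus `b`. -/
theorem K_sub_H (b : ℝ) (f : ℝ → ℝ) (hf : Measurable f) (M : ℝ) (hM : ∀ y, |f y| ≤ M)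
    (hint : Integrable (fun x => f x - Set.indicator (Set.Ioi (0:ℝ)) (1 : ℝ → ℝ) x)) :
    Integrable (fun x => K b f x - Set.indicator (Set.Ioi (0:ℝ)) (1 : ℝ → ℝ) x) ∧
      ∫ x, (K b f x - Set.indicator (Set.Ioi (0:ℝ)) (1 : ℝ → ℝ) x)
        = (∫ x, (f x - Set.indicator (Set.Ioi (0:ℝ)) (1 : ℝ → ℝ) x)) + b := by
  have hHmeas : Measurable (Set.indicator (Set.Ioi (0:ℝ)) (1 : ℝ → ℝ)) :=
    measurable_one.indicator measurableSet_Ioi
  set G : ℝ → ℝ → ℝ := fun s y =>
    (f (y + b * s) - Set.indicator (Set.Ioi (0:ℝ)) (1 : ℝ → ℝ) y) * Real.exp (-s) with hG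
  have hGmeas : Measurable (Function.uncurry G) := by
    refine Measurable.mul (Measurable.sub (hf.comp (by fun_prop)) (hHmeas.comp measurable_snd))
      (by fun_prop)
  have e1 : Integrable (fun s : ℝ => Real.exp (-s)) halfLine := integrableOn_exp_neg_Ioi 0
  have e2 : Integrable (fun s : ℝ => s * Real.exp (-s)) halfLine :=
    Helper25.integrableOn_Ioi_w 0 le_rfl
  -- integrability on the product
  have hGint : Integrable (Function.uncurry G) (halfLine.prod volume) := by
    rw [integrable_prod_iff hGmeas.aestronglyMeasurable]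
    constructor
    · refine Filter.Eventually.of_forall fun s => ?_
      have h := (integrable_shift_sub_H f hint (b * s)).mul_const (Real.exp (-s))
      exact h
    · have hbound : Integrable (fun s : ℝ =>
          ((∫ x, ‖f x - Set.indicator (Set.Ioi (0:ℝ)) (1 : ℝ → ℝ) x‖) + |b| * s)
            * Real.exp (-s)) halfLine := by
        refine ((e1.const_mul (∫ x, ‖f x - Set.indicator (Set.Ioi (0:ℝ)) (1 : ℝ → ℝ) x‖)).add
          (e2.const_mul |b|)).congr (Filter.Eventually.of_forall fun s => ?_)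
        simp only [Pi.add_apply]; ring
      refine hbound.mono' ?_ ?_
      · exact (hGmeas.norm.stronglyMeasurable.integral_prod_right'
          (ν := (volume : Measure ℝ))).aestronglyMeasurable
      · filter_upwards [ae_restrict_mem measurableSet_Ioi] with s hs
        have hs0 : (0:ℝ) < s := hs
        have hnn : 0 ≤ ∫ y, ‖Function.uncurry G (s, y)‖ :=
          integral_nonneg fun y => norm_nonneg _
        rw [Real.norm_eq_abs, abs_of_nonneg hnn]
        have heq : ∀ y, ‖Function.uncurry G (s, y)‖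
            = ‖f (y + b * s) - Set.indicator (Set.Ioi (0:ℝ)) (1 : ℝ → ℝ) y‖ * Real.exp (-s) := by
          intro y
          simp only [Function.uncurry_apply_pair, hG, norm_mul, Real.norm_eq_abs,
            abs_of_pos (Real.exp_pos _)]
        simp only [heq]
        rw [integral_mul_const]
        refine mul_le_mul_of_nonneg_right ?_ (Real.exp_pos _).le
        have := integral_norm_shift_sub_H_le f hint (b * s)
        rw [abs_mul, abs_of_pos hs0] at this
        exact this
  have hinner : ∀ y, ∫ s, G s y ∂halfLine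
      = K b f y - Set.indicator (Set.Ioi (0:ℝ)) (1 : ℝ → ℝ) y := by
    intro y
    have i1 : Integrable (fun s : ℝ => f (y + b * s) * Real.exp (-s)) halfLine := by
      refine e1.bdd_mul (c := M) (hf.comp (by fun_prop)).aestronglyMeasurable ?_
      exact Filter.Eventually.of_forall fun s => by simpa [Real.norm_eq_abs] using hM _
    have i2 : Integrable (fun s : ℝ =>
        Set.indicator (Set.Ioi (0:ℝ)) (1 : ℝ → ℝ) y * Real.exp (-s)) halfLine := e1.const_mul _
    have hfun : (fun s => G s y) = fun s => f (y + b * s) * Real.exp (-s)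
        - Set.indicator (Set.Ioi (0:ℝ)) (1 : ℝ → ℝ) y * Real.exp (-s) := by
      funext s; simp only [hG]; ring
    rw [hfun, integral_sub i1 i2, integral_const_mul, integral_exp_neg_Ioi_zero, mul_one]
    rfl
  have houter : ∀ s, ∫ y, G s y
      = ((∫ x, (f x - Set.indicator (Set.Ioi (0:ℝ)) (1 : ℝ → ℝ) x)) + b * s) * Real.exp (-s) := by
    intro s
    simp only [hG]
    rw [integral_mul_const, integral_shift_sub_H f hint]
  constructor
  · have h := hGint.integral_prod_right
    refine h.congr (Filter.Eventually.of_forall fun y => ?_)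
    exact hinner y
  · calc ∫ x, (K b f x - Set.indicator (Set.Ioi (0:ℝ)) (1 : ℝ → ℝ) x)
        = ∫ y, (∫ s, G s y ∂halfLine) :=
          integral_congr_ae (Filter.Eventually.of_forall fun y => (hinner y).symm)
      _ = ∫ s, (∫ y, G s y) ∂halfLine := (integral_integral_swap hGint).symm
      _ = ∫ s, (((∫ x, (f x - Set.indicator (Set.Ioi (0:ℝ)) (1 : ℝ → ℝ) x)) + b * s)
            * Real.exp (-s)) ∂halfLine :=
          integral_congr_ae (Filter.Eventually.of_forall fun s => houter s)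
      _ = (∫ x, (f x - Set.indicator (Set.Ioi (0:ℝ)) (1 : ℝ → ℝ) x)) + b := by
          have hfun : (fun s : ℝ =>
              ((∫ x, (f x - Set.indicator (Set.Ioi (0:ℝ)) (1 : ℝ → ℝ) x)) + b * s)
                * Real.exp (-s))
              = fun s => (∫ x, (f x - Set.indicator (Set.Ioi (0:ℝ)) (1 : ℝ → ℝ) x))
                  * Real.exp (-s) + b * (s * Real.exp (-s)) := by
            funext s; ring
          rw [hfun, integral_add (e1.const_mul _) (e2.const_mul _), integral_const_mul,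
            integral_const_mul, integral_exp_neg_Ioi_zero, Helper25.integral_Ioi_zero_w]
          ring

/-- **(M2)+(M3) combined.** For `F = Kiter N a H`: `F - H` is integrable with integral `∑ a i`. -/
theorem Kiter_sub_H (N : ℕ) (a : Fin N → ℝ) :
    Integrable (fun x => Kiter N a (Set.indicator (Set.Ioi (0:ℝ)) (1 : ℝ → ℝ)) x
        - Set.indicator (Set.Ioi (0:ℝ)) (1 : ℝ → ℝ) x) ∧
      ∫ x, (Kiter N a (Set.indicator (Set.Ioi (0:ℝ)) (1 : ℝ → ℝ)) x
        - Set.indicator (Set.Ioi (0:ℝ)) (1 : ℝ → ℝ) x) = ∑ i, a i := by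
  induction N with
  | zero => simp
  | succ N ih =>
    have hHmeas : Measurable (Set.indicator (Set.Ioi (0:ℝ)) (1 : ℝ → ℝ)) :=
      measurable_one.indicator measurableSet_Ioi
    have hHb : ∀ y, |Set.indicator (Set.Ioi (0:ℝ)) (1 : ℝ → ℝ) y| ≤ 1 := by
      intro y
      by_cases hy : y ∈ Set.Ioi (0:ℝ)
      · simp [Set.indicator_of_mem hy]
      · simp [Set.indicator_of_notMem hy]
    obtain ⟨hi, he⟩ := ih (fun i => a i.succ)
    have h := K_sub_H (a 0) (Kiter N (fun i => a i.succ) (Set.indicator (Set.Ioi (0:ℝ)) (1 : ℝ → ℝ)))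
      (Kiter_measurable _ _ _ hHmeas) 1 (Kiter_abs_le _ _ _ 1 hHb) hi
    rw [Kiter_succ]
    refine ⟨h.1, ?_⟩
    rw [h.2, he, Fin.sum_univ_succ]
    ring

/-- **(M2)** -/
theorem Kiter_sub_H_integrable (N : ℕ) (a : Fin N → ℝ) :
    Integrable (fun x => Kiter N a (Set.indicator (Set.Ioi (0:ℝ)) (1 : ℝ → ℝ)) x
        - Set.indicator (Set.Ioi (0:ℝ)) (1 : ℝ → ℝ) x) :=
  (Kiter_sub_H N a).1

/-- **(M3)** -/
theorem integral_Kiter_sub_H (N : ℕ) (a : Fin N → ℝ) :
    ∫ x, (Kiter N a (Set.indicator (Set.Ioi (0:ℝ)) (1 : ℝ → ℝ)) x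
        - Set.indicator (Set.Ioi (0:ℝ)) (1 : ℝ → ℝ) x) = ∑ i, a i :=
  (Kiter_sub_H N a).2

end Crest.Agent.Helper42
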